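import Vale.Agent.P243.Final
import Vale.Agent.P243.Coplanar.Final

namespace Vale.Agent.Results.P243.AllBounds

open Vale.Agent.P243 MeasureTheory

/-- One statement collecting our lower bounds for a finite covering of a convex body `K` of
Euclidean 3-space by cylinders `B i + ℝ (u i)`.
(1) The relative base areas `ρ i = min 1 (|B i| / |π_{u i} K|)` satisfy
`∑ (3 ρ i - 2 (ρ i) ^ (3 / 2)) ≥ 1` (refinement of the Bezdek-Litvak inequality `∑ 3 ρ i ≥ 1`).
(2) If all axes are parallel to one plane (orthogonal to the unit vector `ν`), then the total base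
area is at least half the area of the shadow of `K` in some direction `w` parallel to that plane,
hence at least half the minimal shadow area: Bang's half-area inequality.
(3) If the axes are parallel to at most two lines, then also the directionwise relative area is at
least `1 / 2`.
(4) If the axes are parallel to `m ≥ 1` lines, then the directionwise relative area `R` satisfies
`1 ≤ 3 (1 - c) R + m c ^ 3` for all `c ∈ [0, 1]`, and `R ≥ 1 / 3 + 2 / (9 √(3 m))`, and the same
constant works for the total base area divided by the minimal shadow area. -/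
theorem result {ι : Type} [Fintype ι] (K : Set E3) (hK : IsCompact K) (hKc : Convex ℝ K)
    (hKi : (interior K).Nonempty) (u : ι → E3) (hu : ∀ i, ‖u i‖ = 1) (B : ι → Set E3)
    (hBu : ∀ i, ∀ b ∈ B i, inner ℝ (u i) b = 0) (hBfin : ∀ i, μHE[2] (B i) ≠ ⊤)
    (hcov : K ⊆ ⋃ i, cylinder (u i) (B i)) :
    (1 ≤ ∑ i, (3 * min 1 (planarArea (B i) / planarArea (shadow K (u i)))
        - 2 * min 1 (planarArea (B i) / planarArea (shadow K (u i)))
          * √(min 1 (planarArea (B i) / planarArea (shadow K (u i)))))) ∧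
    (∀ ν : E3, ‖ν‖ = 1 → (∀ i, inner ℝ ν (u i) = 0) →
      (∃ w : E3, ‖w‖ = 1 ∧ inner ℝ ν w = 0 ∧
        1 / 2 * planarArea (shadow K w) ≤ ∑ i, planarArea (B i)) ∧
      1 / 2 * minShadowArea K ≤ ∑ i, planarArea (B i)) ∧
    (∀ v w : E3, ‖v‖ = 1 → ‖w‖ = 1 → (∀ i, u i = v ∨ u i = -v ∨ u i = w ∨ u i = -w) →
      1 / 2 ≤ ∑ i, planarArea (B i) / planarArea (shadow K (u i)) ∧
      1 / 2 * minShadowArea K ≤ ∑ i, planarArea (B i)) ∧
    (∀ (m : ℕ) (v : Fin m → E3), 1 ≤ m → (∀ k, ‖v k‖ = 1) →
      (∀ i, ∃ k, u i = v k ∨ u i = -v k) →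
      (∀ c : ℝ, 0 ≤ c → c ≤ 1 →
        1 ≤ 3 * (1 - c) * (∑ i, planarArea (B i) / planarArea (shadow K (u i))) + m * c ^ 3) ∧
      1 / 3 + 2 / (9 * √(3 * m)) ≤ ∑ i, planarArea (B i) / planarArea (shadow K (u i)) ∧
      (1 / 3 + 2 / (9 * √(3 * m))) * minShadowArea K ≤ ∑ i, planarArea (B i)) := by
  refine ⟨?_, ?_, ?_, ?_⟩
  · exact refined_bound K hK hKc hKi u hu B hBu hBfin hcov _ (fun _ => rfl)
  · intro ν hν hplane
    obtain ⟨w, hw1, hwν, hw⟩ := coplanar_axes K hK hKc (hKi.mono interior_subset) u hu B hBu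
      hBfin hcov ν hν hplane
    refine ⟨⟨w, hw1, hwν, hw⟩, le_trans ?_ hw⟩
    have := minShadowArea_le K w hw1
    linarith
  · intro v w hv hw hdir
    have h := two_directions K hK hKc hKi u B hBu hBfin hcov v w hv hw hdir
    exact ⟨h, absolute_of_relative K hK hKi u hu B (1 / 2) h⟩
  · intro m v hm hv hdir
    have h1 : ∀ c : ℝ, 0 ≤ c → c ≤ 1 →
        1 ≤ 3 * (1 - c) * (∑ i, planarArea (B i) / planarArea (shadow K (u i))) + m * c ^ 3 := by
      intro c hc0 hc1
      have h := directions_bound K hK hKc hKi u B hBu hBfin hcov v hv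
        (fun i => (hdir i).imp fun k hk => span_eq_of_eq_or_neg hk) c hc0 hc1
      rwa [Fintype.card_fin] at h
    have h2 := explicit_of_parametric m hm _ h1
    exact ⟨h1, h2, absolute_of_relative K hK hKi u hu B _ h2⟩

end Vale.Agent.Results.P243.AllBounds
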