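import Vale.Agent.P243.Coplanar.Final

namespace Vale.Agent.Results.P243.CoplanarAxes

open Vale.Agent.P243 MeasureTheory

/-- Bang's half-area inequality for every finite covering of a convex body `K` of Euclidean
3-space by cylinders `B i + ℝ (u i)` all of whose axes are parallel to one plane (the plane
orthogonal to the unit vector `ν`); the number of cylinders and of axis directions is arbitrary.
In fact the total base area is at least half the area of the shadow of `K` in some direction `w`
parallel to that plane.  The constant `1 / 2` is attained by Bang's covering of the regular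
tetrahedron, which is of this kind. -/
theorem result {ι : Type} [Fintype ι] (K : Set E3) (hK : IsCompact K) (hKc : Convex ℝ K)
    (hKi : (interior K).Nonempty) (u : ι → E3) (hu : ∀ i, ‖u i‖ = 1) (B : ι → Set E3)
    (hBu : ∀ i, ∀ b ∈ B i, inner ℝ (u i) b = 0) (hBfin : ∀ i, μHE[2] (B i) ≠ ⊤)
    (hcov : K ⊆ ⋃ i, cylinder (u i) (B i)) (ν : E3) (hν : ‖ν‖ = 1)
    (hplane : ∀ i, inner ℝ ν (u i) = 0) :
    (∃ w : E3, ‖w‖ = 1 ∧ inner ℝ ν w = 0 ∧
      1 / 2 * planarArea (shadow K w) ≤ ∑ i, planarArea (B i)) ∧
      1 / 2 * minShadowArea K ≤ ∑ i, planarArea (B i) := by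
  obtain ⟨w, hw1, hwν, hw⟩ := coplanar_axes K hK hKc (hKi.mono interior_subset) u hu B hBu hBfin
    hcov ν hν hplane
  refine ⟨⟨w, hw1, hwν, hw⟩, le_trans ?_ hw⟩
  have := minShadowArea_le K w hw1
  linarith

end Vale.Agent.Results.P243.CoplanarAxes
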