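import Vale.Agent.P243.Final

namespace Vale.Agent.Results.P243.RefinedBound

open Vale.Agent.P243 MeasureTheory

/-- Refinement of the Bezdek-Litvak inequality `∑ 3 ρ i ≥ 1`: for every finite covering of a convex
body `K` of Euclidean 3-space by cylinders `B i + ℝ (u i)`, the relative base areas
`ρ i = min 1 (|B i| / |π_{u i} K|)` satisfy `∑ (3 ρ i - 2 (ρ i) ^ (3 / 2)) ≥ 1`. -/
theorem result {ι : Type} [Fintype ι] (K : Set E3) (hK : IsCompact K) (hKc : Convex ℝ K)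
    (hKi : (interior K).Nonempty) (u : ι → E3) (hu : ∀ i, ‖u i‖ = 1) (B : ι → Set E3)
    (hBu : ∀ i, ∀ b ∈ B i, inner ℝ (u i) b = 0) (hBfin : ∀ i, μHE[2] (B i) ≠ ⊤)
    (hcov : K ⊆ ⋃ i, cylinder (u i) (B i)) (ρ : ι → ℝ)
    (hρ : ∀ i, ρ i = min 1 (planarArea (B i) / planarArea (shadow K (u i)))) :
    1 ≤ ∑ i, (3 * ρ i - 2 * ρ i * √(ρ i)) :=
  refined_bound K hK hKc hKi u hu B hBu hBfin hcov ρ hρ

end Vale.Agent.Results.P243.RefinedBound
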