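import Vale.Agent.P243.Final

namespace Vale.Agent.Results.P243.TwoDirections

open Vale.Agent.P243 MeasureTheory

/-- Bang's half-area inequality, in the strong (directionwise relative) form and in the original
form, for every finite covering of a convex body `K` of Euclidean 3-space by cylinders
`B i + ℝ (u i)` whose axes are parallel to at most two lines `ℝ v`, `ℝ w`.  The constant `1 / 2`
is attained by Bang's covering of the regular tetrahedron, which is of this kind. -/
theorem result {ι : Type} [Fintype ι] (K : Set E3) (hK : IsCompact K) (hKc : Convex ℝ K)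
    (hKi : (interior K).Nonempty) (u : ι → E3) (hu : ∀ i, ‖u i‖ = 1) (B : ι → Set E3)
    (hBu : ∀ i, ∀ b ∈ B i, inner ℝ (u i) b = 0) (hBfin : ∀ i, μHE[2] (B i) ≠ ⊤)
    (hcov : K ⊆ ⋃ i, cylinder (u i) (B i)) (v w : E3) (hv : ‖v‖ = 1) (hw : ‖w‖ = 1)
    (hdir : ∀ i, u i = v ∨ u i = -v ∨ u i = w ∨ u i = -w) :
    1 / 2 ≤ ∑ i, planarArea (B i) / planarArea (shadow K (u i)) ∧
      1 / 2 * minShadowArea K ≤ ∑ i, planarArea (B i) := by
  have h := two_directions K hK hKc hKi u B hBu hBfin hcov v w hv hw hdir
  exact ⟨h, absolute_of_relative K hK hKi u hu B (1 / 2) h⟩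

end Vale.Agent.Results.P243.TwoDirections
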